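import Vale.Agent.P143_h11.Defs

open MeasureTheory Filter Topology ProbabilityTheory
open scoped ENNReal unitInterval

namespace Vale.Agent.P143B

open Vale.Agent.P143 (iidUniform)

section Split

/-- Product of two infinite products as an infinite product over the disjoint union. -/
theorem prod_map_sumElim {A B X : Type*} [MeasurableSpace X] (μ : Measure X)
    [IsProbabilityMeasure μ] :
    ((Measure.infinitePi fun _ : A => μ).prod (Measure.infinitePi fun _ : B => μ)).map
        (fun p : (A → X) × (B → X) => Sum.elim p.1 p.2) =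
      Measure.infinitePi fun _ : A ⊕ B => μ := by
  classical
  refine Measure.eq_infinitePi _ fun s t ht => ?_
  have hmeas : Measurable (fun p : (A → X) × (B → X) => Sum.elim p.1 p.2) := by
    refine measurable_pi_iff.2 fun i => ?_
    rcases i with i | i
    · exact (measurable_pi_apply i).comp measurable_fst
    · exact (measurable_pi_apply i).comp measurable_snd
  rw [Measure.map_apply hmeas (MeasurableSet.pi s.countable_toSet fun i _ => ht i)]
  have : (fun p : (A → X) × (B → X) => Sum.elim p.1 p.2) ⁻¹' ((s : Set (A ⊕ B)).pi t) =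
      ((s.toLeft : Set A).pi fun i => t (Sum.inl i)) ×ˢ
        ((s.toRight : Set B).pi fun i => t (Sum.inr i)) := by
    ext p
    simp only [Set.mem_preimage, Set.mem_pi, Finset.mem_coe, Set.mem_prod, Finset.mem_toLeft,
      Finset.mem_toRight]
    constructor
    · intro h
      exact ⟨fun i hi => h _ hi, fun i hi => h _ hi⟩
    · rintro ⟨h1, h2⟩ (i | i) hi
      · exact h1 i hi
      · exact h2 i hi
  rw [this, Measure.prod_prod, Measure.infinitePi_pi _ (fun i _ => ht _),
    Measure.infinitePi_pi _ (fun i _ => ht _)]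
  conv_rhs => rw [← Finset.toLeft_disjSum_toRight (u := s)]
  rw [Finset.prod_disjSum]

end Split

section Core

variable {V : Type*} {Y : Type*}

/-- The rank of `v` among the neighbours of `u`. -/
noncomputable def rk (G : SimpleGraph V) (a : V → I) (u v : V) : ℕ :=
  ⌊(∑' w, Set.indicator {w | G.Adj u w ∧ a w < a v} (fun _ => (1 : ℝ≥0∞)) w).toReal⌋₊

/-- The label of a pair. -/
noncomputable def pairLab (f : I → Y) (G : SimpleGraph V) (a : V → I) (b : V × ℕ → I)
    (u v : V) : Y :=
  open Classical in
  if a u < a v then f (b (u, rk G a u v)) else if a v < a u then f (b (v, rk G a v u)) else f 0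

theorem pairLab_comm (f : I → Y) (G : SimpleGraph V) (a : V → I) (b : V × ℕ → I)
    (u v : V) : pairLab f G a b u v = pairLab f G a b v u := by
  unfold pairLab
  rcases lt_trichotomy (a u) (a v) with h | h | h
  · simp [h, h.not_gt]
  · simp [h]
  · simp [h, h.not_gt]

/-- The label of an edge. -/
noncomputable def edgeLab (f : I → Y) (G : SimpleGraph V) (a : V → I) (b : V × ℕ → I) :
    Sym2 V → Y :=
  Sym2.lift ⟨pairLab f G a b, pairLab_comm f G a b⟩

@[simp] theorem edgeLab_mk (f : I → Y) (G : SimpleGraph V) (a : V → I) (b : V × ℕ → I)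
    (u v : V) : edgeLab f G a b s(u, v) = pairLab f G a b u v := rfl

theorem rk_eq_ncard (G : SimpleGraph V) (a : V → I) (u v : V)
    (hu : (G.neighborSet u).Finite) : rk G a u v = {w | G.Adj u w ∧ a w < a v}.ncard := by
  unfold rk
  have hfin : {w | G.Adj u w ∧ a w < a v}.Finite := hu.subset fun w hw => hw.1
  rw [← tsum_subtype {w | G.Adj u w ∧ a w < a v} (fun _ => (1 : ℝ≥0∞)), ENNReal.tsum_set_one,
    ← hfin.cast_ncard_eq]
  simp

theorem rk_map (g : Equiv.Perm V) (G : SimpleGraph V) (a : V → I) (u v : V) :
    rk (G.map g.toEmbedding) (fun v => a (g.symm v)) (g u) (g v) = rk G a u v := by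
  unfold rk
  congr 2
  rw [← g.tsum_eq]
  refine tsum_congr fun w => ?_
  have : (g w ∈ {w | (G.map g.toEmbedding).Adj (g u) w ∧ a (g.symm w) < a (g.symm (g v))}) ↔
      w ∈ {w | G.Adj u w ∧ a w < a v} := by
    have h1 : (G.map g.toEmbedding).Adj (g u) (g w) ↔ G.Adj u w :=
      SimpleGraph.map_adj_apply (G := G) (f := g.toEmbedding) (a := u) (b := w)
    show ((G.map g.toEmbedding).Adj (g u) (g w) ∧ a (g.symm (g w)) < a (g.symm (g v))) ↔
      (G.Adj u w ∧ a w < a v)
    rw [h1, Equiv.symm_apply_apply, Equiv.symm_apply_apply]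
  by_cases h : w ∈ {w | G.Adj u w ∧ a w < a v}
  · rw [Set.indicator_of_mem h, Set.indicator_of_mem (this.2 h)]
  · rw [Set.indicator_of_notMem h, Set.indicator_of_notMem (fun h' => h (this.1 h'))]

theorem edgeLab_map (f : I → Y) (g : Equiv.Perm V) (G : SimpleGraph V) (a : V → I)
    (b : V × ℕ → I) (e : Sym2 V) :
    edgeLab f (G.map g.toEmbedding) (fun v => a (g.symm v)) (fun p => b (g.symm p.1, p.2))
      (e.map g) = edgeLab f G a b e := by
  induction e with
  | _ u v =>
    rw [Sym2.map_mk, edgeLab_mk, edgeLab_mk]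
    unfold pairLab
    rw [rk_map, rk_map]
    simp

/-- The index used by the edge `e`. -/
noncomputable def sel (G : SimpleGraph V) (a : V → I) : Sym2 V → V × ℕ :=
  open Classical in
  fun e => if h : ∃ p : V × V, e = s(p.1, p.2) ∧ a p.1 < a p.2 then
    (h.choose.1, rk G a h.choose.1 h.choose.2) else (e.out.1, 0)

theorem sel_eq (G : SimpleGraph V) (a : V → I) (u v : V) (h : a u < a v) :
    sel G a s(u, v) = (u, rk G a u v) := by
  unfold sel
  have hex : ∃ p : V × V, s(u, v) = s(p.1, p.2) ∧ a p.1 < a p.2 := ⟨(u, v), rfl, h⟩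
  rw [dif_pos hex]
  have h1 := hex.choose_spec
  have : hex.choose = (u, v) := by
    rcases Sym2.eq_iff.1 h1.1 with ⟨h2, h3⟩ | ⟨h2, h3⟩
    · exact Prod.ext h2.symm h3.symm
    · exfalso
      have h4 := h1.2
      rw [← h2, ← h3] at h4
      exact absurd h h4.not_gt
  rw [this]

theorem edgeLab_eq_sel (f : I → Y) (G : SimpleGraph V) (a : V → I) (ha : Function.Injective a)
    (b : V × ℕ → I) (e : Sym2 V) (he : e ∈ G.edgeSet) :
    edgeLab f G a b e = f (b (sel G a e)) := by
  induction e with
  | _ u v =>
    have huv : u ≠ v := (G.mem_edgeSet.1 he).ne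
    rcases lt_trichotomy (a u) (a v) with h | h | h
    · rw [sel_eq G a u v h, edgeLab_mk]; simp [pairLab, h]
    · exact absurd (ha h) huv
    · rw [Sym2.eq_swap, sel_eq G a v u h, edgeLab_mk]; simp [pairLab, h]

theorem sel_injective (G : SimpleGraph V) (hG : ∀ v, (G.neighborSet v).Finite) (a : V → I)
    (ha : Function.Injective a) : Function.Injective (fun e : G.edgeSet => sel G a e) := by
  have key : ∀ e : Sym2 V, e ∈ G.edgeSet → ∃ u v, e = s(u, v) ∧ a u < a v ∧ G.Adj u v := by
    intro e he
    induction e with
    | _ u v =>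
      have huv : u ≠ v := (G.mem_edgeSet.1 he).ne
      rcases lt_trichotomy (a u) (a v) with h | h | h
      · exact ⟨u, v, rfl, h, G.mem_edgeSet.1 he⟩
      · exact absurd (ha h) huv
      · exact ⟨v, u, Sym2.eq_swap, h, (G.mem_edgeSet.1 he).symm⟩
  have mono : ∀ u v v', G.Adj u v → a v < a v' → rk G a u v < rk G a u v' := by
    intro u v v' huv hvv'
    rw [rk_eq_ncard G a u v (hG u), rk_eq_ncard G a u v' (hG u)]
    refine Set.ncard_lt_ncard ?_ ((hG u).subset fun w hw => hw.1)
    refine ⟨fun w hw => ⟨hw.1, hw.2.trans hvv'⟩, fun h => ?_⟩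
    exact lt_irrefl _ (h (show v ∈ {w | G.Adj u w ∧ a w < a v'} from ⟨huv, hvv'⟩)).2
  rintro ⟨e, he⟩ ⟨e', he'⟩ h
  obtain ⟨u, v, rfl, hlt, hadj⟩ := key e he
  obtain ⟨u', v', rfl, hlt', hadj'⟩ := key e' he'
  simp only at h
  rw [sel_eq G a u v hlt, sel_eq G a u' v' hlt'] at h
  obtain ⟨h1, h2⟩ := Prod.mk.inj h
  subst h1
  have : v = v' := by
    rcases lt_trichotomy (a v) (a v') with h3 | h3 | h3
    · exact absurd h2 (mono u v v' hadj h3).ne
    · exact ha h3
    · exact absurd h2 (mono u v' v hadj' h3).ne'
  subst this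
  rfl

end Core

section Meas

variable {V : Type*} [Countable V] {Y : Type*} [MeasurableSpace Y]

omit [Countable V] in
theorem measurableSet_adj {Ω : Type*} [MeasurableSpace Ω] {G : Ω → SimpleGraph V}
    (hG : Measurable G) (u w : V) : MeasurableSet {x | (G x).Adj u w} := by
  have h1 : Measurable (fun H : SimpleGraph V => H.Adj) := comap_measurable _
  have h2 : Measurable (fun H : SimpleGraph V => H.Adj u w) :=
    (measurable_pi_apply w).comp ((measurable_pi_apply u).comp h1)
  exact measurableSet_setOfPred.2 (h2.comp hG)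

theorem measurable_rk {Ω : Type*} [MeasurableSpace Ω] {G : Ω → SimpleGraph V}
    (hG : Measurable G) {a : Ω → V → I} (ha : Measurable a) (u v : V) :
    Measurable (fun x => rk (G x) (a x) u v) := by
  unfold rk
  refine Nat.measurable_floor.comp (ENNReal.measurable_toReal.comp ?_)
  refine Measurable.tsum fun w => ?_
  have hlt : MeasurableSet {x | a x w < a x v} :=
    measurableSet_lt (f := fun x => a x w) (g := fun x => a x v) ((measurable_pi_apply w).comp ha)
      ((measurable_pi_apply v).comp ha)
  have hs : MeasurableSet {x | (G x).Adj u w ∧ a x w < a x v} :=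
    (measurableSet_adj hG u w).inter hlt
  have : (fun x => Set.indicator {w | (G x).Adj u w ∧ a x w < a x v} (fun _ => (1 : ℝ≥0∞)) w) =
      Set.indicator {x | (G x).Adj u w ∧ a x w < a x v} (fun _ => (1 : ℝ≥0∞)) := by
    funext x
    simp only [Set.indicator]
    rfl
  rw [this]
  exact measurable_const.indicator hs

omit [Countable V] in
theorem measurable_eval_nat {Ω : Type*} [MeasurableSpace Ω] {b : Ω → V × ℕ → I}
    (hb : Measurable b) {r : Ω → ℕ} (hr : Measurable r) (u : V) :
    Measurable (fun x => b x (u, r x)) := by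
  have h1 : Measurable (fun q : (V × ℕ → I) × ℕ => q.1 (u, q.2)) :=
    measurable_from_prod_countable_left fun n => measurable_pi_apply (u, n)
  exact h1.comp (hb.prodMk hr)

theorem measurable_edgeLab {Ω : Type*} [MeasurableSpace Ω] {f : I → Y} (hf : Measurable f)
    {G : Ω → SimpleGraph V} (hG : Measurable G) {a : Ω → V → I} (ha : Measurable a)
    {b : Ω → V × ℕ → I} (hb : Measurable b) (e : Sym2 V) :
    Measurable (fun x => edgeLab f (G x) (a x) (b x) e) := by
  classical
  induction e with
  | _ u v =>
    simp only [edgeLab_mk]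
    unfold pairLab
    have hau := (measurable_pi_apply u).comp ha
    have hav := (measurable_pi_apply v).comp ha
    refine Measurable.ite (measurableSet_lt hau hav) ?_ (Measurable.ite (measurableSet_lt hav hau)
      ?_ measurable_const)
    · exact hf.comp (measurable_eval_nat hb (measurable_rk hG ha u v) u)
    · exact hf.comp (measurable_eval_nat hb (measurable_rk hG ha v u) v)

theorem ae_injective :
    ∀ᵐ a ∂(Measure.infinitePi fun _ : V => (volume : Measure I)), Function.Injective a := by
  have h : ∀ u v : V, u ≠ v → ∀ᵐ a ∂(Measure.infinitePi fun _ : V => (volume : Measure I)),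
      a u ≠ a v := by
    intro u v huv
    have h1 := Measure.infinitePi_map_eval_prod (P := fun _ : V => (volume : Measure I)) huv
    have hd : MeasurableSet {p : I × I | p.1 = p.2} := measurableSet_eq_fun measurable_fst
      measurable_snd
    have h2 : ((volume : Measure I).prod (volume : Measure I)) {p : I × I | p.1 = p.2} = 0 := by
      rw [Measure.prod_apply hd]
      refine lintegral_eq_zero_of_ae_eq_zero (ae_of_all _ fun x => ?_)
      have : Prod.mk x ⁻¹' {p : I × I | p.1 = p.2} = {x} := by
        ext y; simp [eq_comm]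
      show (volume : Measure I) (Prod.mk x ⁻¹' {p : I × I | p.1 = p.2}) = 0
      rw [this]
      exact measure_singleton x
    rw [← h1, Measure.map_apply (by fun_prop) hd] at h2
    rw [ae_iff]
    refine (congrArg _ ?_).trans h2
    ext a
    simp
  have h' : ∀ᵐ a ∂(Measure.infinitePi fun _ : V => (volume : Measure I)),
      ∀ u v : V, u ≠ v → a u ≠ a v := by
    rw [ae_all_iff]; intro u
    rw [ae_all_iff]; intro v
    by_cases huv : u = v
    · exact ae_of_all _ fun a h => absurd huv h
    · filter_upwards [h u v huv] with a ha _ using ha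
  filter_upwards [h'] with a ha u v huv
  by_contra hne
  exact ha u v hne huv

end Meas

section Law

variable {V : Type*} [Countable V] {Y : Type*} [MeasurableSpace Y]

omit [Countable V] in
/-- The law of the two families of labels. -/
theorem law_split {T : I → ℕ → I} (hT : Measurable T)
    (hTlaw : (volume : Measure I).map T = Measure.infinitePi fun _ : ℕ => (volume : Measure I)) :
    (iidUniform V).map (fun U => ((fun v => T (U v) 0), (fun p : V × ℕ => T (U p.1) (p.2 + 1)))) =
      (Measure.infinitePi fun _ : V => (volume : Measure I)).prod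
        (Measure.infinitePi fun _ : V × ℕ => (volume : Measure I)) := by
  set P : Measure I := volume with hP
  -- step 1
  have h1 : (iidUniform V).map (fun U v => T (U v)) =
      Measure.infinitePi fun _ : V => Measure.infinitePi fun _ : ℕ => P := by
    unfold iidUniform
    rw [Measure.infinitePi_map_pi (μ := fun _ : V => P) (f := fun _ => T) (fun _ => hT)]
    simp only [hTlaw]
  -- step 2
  have h2 := Measure.infinitePi_map_curry_symm (ι := V) (κ := ℕ) (X := I) (fun _ _ => P)
  -- step 3
  let φ : V ⊕ (V × ℕ) → V × ℕ := Sum.elim (fun v => (v, 0)) (fun p => (p.1, p.2 + 1))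
  have hφ : Function.Injective φ := by
    rintro (u | ⟨u, k⟩) (v | ⟨v, l⟩) h <;> simp [φ] at h ⊢
    · exact h
    · exact h
  have h3 := Measure.map_infinitePi_infinitePi_of_inj (P := fun _ : V × ℕ => P) hφ
  have h4 := prod_map_sumElim (A := V) (B := V × ℕ) P
  rw [← h1] at h2
  rw [← h2] at h3
  have hmT : Measurable (fun (U : V → I) v => T (U v)) := by
    refine measurable_pi_iff.2 fun v => hT.comp (measurable_pi_apply v)
  rw [Measure.map_map (MeasurableEquiv.measurable _) hmT, Measure.map_map (by fun_prop)
    ((MeasurableEquiv.measurable _).comp hmT)] at h3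
  rw [← h4] at h3
  have h5 := congrArg (Measure.map (fun y : V ⊕ (V × ℕ) → I =>
    ((fun v => y (Sum.inl v)), (fun p => y (Sum.inr p))))) h3
  have hm1 : Measurable (fun y : V ⊕ (V × ℕ) → I =>
    ((fun v => y (Sum.inl v)), (fun p => y (Sum.inr p)))) := by fun_prop
  have hm2 : Measurable (fun p : (V → I) × (V × ℕ → I) => Sum.elim p.1 p.2) := by
    refine measurable_pi_iff.2 fun i => ?_
    rcases i with i | i
    · exact (measurable_pi_apply i).comp measurable_fst
    · exact (measurable_pi_apply i).comp measurable_snd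
  rw [Measure.map_map hm1 hm2, Measure.map_map hm1 (by
    refine Measurable.comp (by fun_prop) ((MeasurableEquiv.measurable _).comp hmT))] at h5
  have h6 : ((fun y : V ⊕ (V × ℕ) → I =>
      ((fun v => y (Sum.inl v)), (fun p => y (Sum.inr p)))) ∘
      fun p : (V → I) × (V × ℕ → I) => Sum.elim p.1 p.2) = id := by
    funext p; rfl
  rw [h6, Measure.map_id] at h5
  exact h5

theorem law_edgeLab {ν : Measure Y} [IsProbabilityMeasure ν] {f : I → Y} (hf : Measurable f)
    (hflaw : (volume : Measure I).map f = ν) (G : SimpleGraph V)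
    (hG : ∀ v, (G.neighborSet v).Finite) :
    ((Measure.infinitePi fun _ : V => (volume : Measure I)).prod
        (Measure.infinitePi fun _ : V × ℕ => (volume : Measure I))).map
      (fun p (e : G.edgeSet) => edgeLab f G p.1 p.2 e) =
      Measure.infinitePi fun _ : G.edgeSet => ν := by
  have hm : Measurable (fun (p : (V → I) × (V × ℕ → I)) (e : G.edgeSet) =>
      edgeLab f G p.1 p.2 e) := by
    refine measurable_pi_iff.2 fun e => ?_
    exact measurable_edgeLab hf measurable_const measurable_fst measurable_snd _
  refine Measure.eq_infinitePi _ fun s t ht => ?_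
  have hbox : MeasurableSet ((s : Set G.edgeSet).pi t) :=
    MeasurableSet.pi s.countable_toSet fun i _ => ht i
  rw [Measure.map_apply hm hbox, Measure.prod_apply (hm hbox)]
  have key : ∀ᵐ a ∂(Measure.infinitePi fun _ : V => (volume : Measure I)),
      (Measure.infinitePi fun _ : V × ℕ => (volume : Measure I))
        (Prod.mk a ⁻¹' ((fun (p : (V → I) × (V × ℕ → I)) (e : G.edgeSet) =>
          edgeLab f G p.1 p.2 e) ⁻¹' ((s : Set G.edgeSet).pi t))) = ∏ i ∈ s, ν (t i) := by
    filter_upwards [ae_injective] with a ha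
    have h1 : (fun (b : V × ℕ → I) (e : G.edgeSet) => edgeLab f G a b e) =
        fun b e => f (b (sel G a e)) := by
      funext b e
      exact edgeLab_eq_sel f G a ha b e e.2
    have h2 : Prod.mk a ⁻¹' ((fun (p : (V → I) × (V × ℕ → I)) (e : G.edgeSet) =>
          edgeLab f G p.1 p.2 e) ⁻¹' ((s : Set G.edgeSet).pi t)) =
        (fun (b : V × ℕ → I) (e : G.edgeSet) => f (b (sel G a e))) ⁻¹'
          ((s : Set G.edgeSet).pi t) := by
      rw [← h1]; rfl
    rw [h2, ← Measure.map_apply (by
      refine measurable_pi_iff.2 fun e => hf.comp (measurable_pi_apply _)) hbox]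
    have h3 := Measure.map_infinitePi_infinitePi_of_inj
      (P := fun _ : V × ℕ => (volume : Measure I)) (sel_injective G hG a ha)
    have h4 := Measure.infinitePi_map_pi (μ := fun _ : G.edgeSet => (volume : Measure I))
      (f := fun _ => f) (fun _ => hf)
    have h5 := congrArg (Measure.map (fun (x : G.edgeSet → I) e => f (x e))) h3
    rw [Measure.map_map (by
      refine measurable_pi_iff.2 fun e => hf.comp (measurable_pi_apply _)) (by fun_prop), h4] at h5
    have h6 : ((fun (x : G.edgeSet → I) e => f (x e)) ∘
        fun (ω : V × ℕ → I) (i : G.edgeSet) => ω (sel G a i)) =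
        fun (b : V × ℕ → I) (e : G.edgeSet) => f (b (sel G a e)) := rfl
    rw [h6] at h5
    rw [h5]
    simp_rw [hflaw]
    rw [Measure.infinitePi_pi _ (fun i _ => ht i)]
  rw [lintegral_congr_ae key]
  simp

end Law

/-- **PART B** (i.i.d. labels on the edges as a graph factor of i.i.d. labels on the vertices). -/
theorem exists_edge_labels {V : Type*} [Countable V] {Y : Type*} [MeasurableSpace Y]
    [StandardBorelSpace Y] [Nonempty Y] (ν : Measure Y) [IsProbabilityMeasure ν] :
    ∃ L : SimpleGraph V → (V → I) → Sym2 V → Y,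
      (∀ e, Measurable (fun p : SimpleGraph V × (V → I) => L p.1 p.2 e)) ∧
      (∀ (g : Equiv.Perm V) (G : SimpleGraph V) (U : V → I) (e : Sym2 V),
        L (G.map g.toEmbedding) (fun v => U (g.symm v)) (e.map g) = L G U e) ∧
      ∀ G : SimpleGraph V, (∀ v, (G.neighborSet v).Finite) →
        (iidUniform V).map (fun U (e : G.edgeSet) => L G U e) =
          Measure.infinitePi (fun _ : G.edgeSet => ν) := by
  obtain ⟨f, hf, hflaw⟩ := Measure.exists_measurable_map_eq ν
  obtain ⟨T, hT, hTlaw⟩ := Measure.exists_measurable_map_eq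
    (Measure.infinitePi fun _ : ℕ => (volume : Measure I))
  refine ⟨fun G U => edgeLab f G (fun v => T (U v) 0) (fun p => T (U p.1) (p.2 + 1)), ?_, ?_, ?_⟩
  · intro e
    refine measurable_edgeLab hf measurable_fst ?_ ?_ e
    · refine measurable_pi_iff.2 fun v => ?_
      exact (measurable_pi_apply 0).comp (hT.comp ((measurable_pi_apply v).comp measurable_snd))
    · refine measurable_pi_iff.2 fun p => ?_
      exact (measurable_pi_apply (p.2 + 1)).comp
        (hT.comp ((measurable_pi_apply p.1).comp measurable_snd))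
  · intro g G U e
    exact edgeLab_map f g G (fun v => T (U v) 0) (fun p => T (U p.1) (p.2 + 1)) e
  · intro G hG
    rw [← law_edgeLab hf hflaw G hG, ← law_split hT hTlaw, Measure.map_map]
    · rfl
    · refine measurable_pi_iff.2 fun e => ?_
      exact measurable_edgeLab hf measurable_const measurable_fst measurable_snd _
    · refine Measurable.prodMk ?_ ?_
      · refine measurable_pi_iff.2 fun v => ?_
        exact (measurable_pi_apply 0).comp (hT.comp (measurable_pi_apply v))
      · refine measurable_pi_iff.2 fun p => ?_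
        exact (measurable_pi_apply (p.2 + 1)).comp (hT.comp (measurable_pi_apply p.1))

end Vale.Agent.P143B
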